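import Vale.Agent.P252.H674.Cells
import Vale.Agent.P252.H474.Trans

/-!
# `Stmt_cells`: the rescaled cell estimates at any finite set of scales
-/

open scoped ContDiff Topology
open Filter MeasureTheory

namespace Vale.Agent.P252.R

variable {n k : ℕ}

/-- `Close` is monotone in both parameters. -/
lemma Close.mono838 {V : Type*} [SeminormedAddCommGroup V] {R R' ε ε' : ℝ} {K K' : Set V}
    (h : Close R ε K K') (hR : R' ≤ R) (hε : ε ≤ ε') : Close R' ε' K K' := by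
  refine ⟨fun p hp hpR => ?_, fun p hp hpR => ?_⟩
  · obtain ⟨q, hq, hpq⟩ := h.1 p hp (hpR.trans hR)
    exact ⟨q, hq, hpq.trans hε⟩
  · obtain ⟨q, hq, hpq⟩ := h.2 p hp (hpR.trans hR)
    exact ⟨q, hq, hpq.trans hε⟩

/-- `Close` pulls back under linear isomorphisms. -/
lemma Close.preimage838 {V : Type*} [NormedAddCommGroup V] [NormedSpace ℝ V] (Φ : V ≃L[ℝ] V)
    {R' ε' : ℝ} (hε' : 0 < ε') : ∀ᶠ t : ℝ in atTop, ∀ K K' : Set V, Close t (1 / t) K K' →
      Close R' ε' (Φ ⁻¹' K) (Φ ⁻¹' K') := by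
  set a : ℝ := ‖(Φ : V →L[ℝ] V)‖ with ha
  set b : ℝ := ‖(Φ.symm : V →L[ℝ] V)‖ with hb
  have ha0 : 0 ≤ a := norm_nonneg _
  have hb0 : 0 ≤ b := norm_nonneg _
  filter_upwards [eventually_ge_atTop (a * |R'|), eventually_gt_atTop 0,
    eventually_ge_atTop (b / ε')] with t ht1 ht0 ht2
  have hbt : b * (1 / t) ≤ ε' := by
    rw [div_le_iff₀ hε'] at ht2
    rw [mul_one_div, div_le_iff₀ ht0]
    linarith
  have key : ∀ K K' : Set V, (∀ p ∈ K, ‖p‖ ≤ t → ∃ q ∈ K', ‖p - q‖ ≤ 1 / t) →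
      ∀ p ∈ Φ ⁻¹' K, ‖p‖ ≤ R' → ∃ q ∈ Φ ⁻¹' K', ‖p - q‖ ≤ ε' := by
    intro K K' h p hp hpR
    have h1 : ‖Φ p‖ ≤ t := by
      have := (Φ : V →L[ℝ] V).le_opNorm p
      have h2 : a * ‖p‖ ≤ a * |R'| := by
        gcongr
        exact hpR.trans (le_abs_self _)
      exact (this.trans h2).trans ht1
    obtain ⟨q, hq, hpq⟩ := h (Φ p) hp h1
    refine ⟨Φ.symm q, by simpa using hq, ?_⟩
    have h3 : p - Φ.symm q = Φ.symm (Φ p - q) := by simp
    rw [h3]
    have := (Φ.symm : V →L[ℝ] V).le_opNorm (Φ p - q)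
    calc ‖Φ.symm (Φ p - q)‖ ≤ b * ‖Φ p - q‖ := this
      _ ≤ b * (1 / t) := by gcongr
      _ ≤ ε' := hbt
  intro K K' hKK
  exact ⟨key K K' hKK.1, key K' K hKK.2⟩

/-- The linear map `(x, z) ↦ (T x, a z)`. -/
noncomputable def diagMap (T : En n ≃L[ℝ] En n) (a : ℝ) (ha : a ≠ 0) :
    (En n × ℝ) ≃L[ℝ] (En n × ℝ) :=
  T.prodCongr (ContinuousLinearEquiv.unitsEquivAut ℝ (Units.mk0 a ha))

lemma diagMap_apply (T : En n ≃L[ℝ] En n) (a : ℝ) (ha : a ≠ 0) (p : En n × ℝ) :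
    diagMap T a ha p = (T p.1, a * p.2) := by
  simp [diagMap, ContinuousLinearEquiv.unitsEquivAut, mul_comm]

section formulas

variable {Ω : Set (En n)} {u : En n → ℝ} {T : En n ≃L[ℝ] En n} {a : Fin n → ℝ} {az : ℝ}

lemma mem_cell_iff (ha : ∀ i, 0 < a i) (haz : 0 < az)
    (hT : ∀ x, ∀ i : Fin n, i.val < k → T x i = a i * x i) (lo hi : ℝ) (x : En n) :
    T x + 0 ∈ cell k Ω u lo hi a az ↔
      x ∈ {x | x ∈ trD Ω T 0 ∧ lo ≤ tr u T 0 (1 / az) 0 0 x ∧ tr u T 0 (1 / az) 0 0 x ≤ hi ∧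
        ∀ i : Fin n, i.val < k → lo ≤ x i ∧ x i ≤ hi} := by
  have h0 : tr u T 0 (1 / az) 0 0 x = u (T x + 0) / az := by
    simp [tr, div_eq_inv_mul]
  simp only [cell, Set.mem_ofPred_eq, mem_trD, h0, le_div_iff₀ haz, div_le_iff₀ haz]
  refine and_congr_right fun _ => and_congr_right fun _ => and_congr_right fun _ => ?_
  refine forall_congr' fun i => forall_congr' fun hi' => ?_
  have h1 : (T x + 0) i = a i * x i := by
    rw [add_zero]; exact hT x i hi'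
  rw [h1, mul_comm (a i) (x i)]
  exact and_congr (mul_le_mul_iff_left₀ (ha i)) (mul_le_mul_iff_left₀ (ha i))

lemma Bf_cell (h : SC Ω u) (haz : 0 < az) {x : En n} (hx : T x + 0 ∈ Ω)
    (hT : ∀ x, ∀ i : Fin n, i.val < k → T x i = a i * x i)
    (hT' : ∀ i : Fin n, i.val < k →
      T (EuclideanSpace.single i 1) = EuclideanSpace.single i (a i)) :
    Bf k u (T x + 0) = az * Bf k (tr u T 0 (1 / az) 0 0) x := by
  rw [Bf_tr (h.diffAt hx) hT' (fun i hi => hT x i hi) (fun i _ => rfl)]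
  simp
  field_simp

lemma dt_cell (h : SC Ω u) (haz : 0 < az) {x : En n} (hx : T x + 0 ∈ Ω) :
    Real.sqrt (dt u (T x + 0)) =
      az ^ ((n : ℝ) / 2) * |(mT T).det|⁻¹ * Real.sqrt (dt (tr u T 0 (1 / az) 0 0) x) := by
  have hd : 0 < |(mT T).det| := abs_pos.2 (isUnit_det_mT T).ne_zero
  rw [dt_tr h.op h.two hx]
  have h1 : dt u (T x + 0) = (az ^ ((n : ℝ) / 2) * |(mT T).det|⁻¹) ^ 2 *
      ((1 / az) ^ n * (mT T).det ^ 2 * dt u (T x + 0)) := by
    have h2 : (az ^ ((n : ℝ) / 2)) ^ 2 = az ^ n := by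
      rw [← Real.rpow_natCast (az ^ ((n : ℝ) / 2)) 2, ← Real.rpow_mul haz.le]
      norm_num
    have h3 : (mT T).det ≠ 0 := (isUnit_det_mT T).ne_zero
    rw [mul_pow, h2, inv_pow, sq_abs, one_div, inv_pow]
    field_simp
  conv_lhs => rw [h1]
  rw [Real.sqrt_mul (sq_nonneg _), Real.sqrt_sq (by positivity)]

lemma ip_gr_cell (h : SC Ω u) (haz : 0 < az) {x : En n} (hx : T x + 0 ∈ Ω) :
    az * (ip u (T x + 0) (gr u (T x + 0)) (gr u (T x + 0)) / az ^ 2) =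
      ip (tr u T 0 (1 / az) 0 0) x (gr (tr u T 0 (1 / az) 0 0) x)
        (gr (tr u T 0 (1 / az) 0 0) x) := by
  have hg : gr (tr u T 0 (1 / az) 0 0) x =
      (mT T).transpose.mulVec ((1 / az) • gr u (T x + 0)) := by
    rw [gr_tr (h.diffAt hx), Matrix.mulVec_smul, add_zero]
  rw [hg, ip_tr h.op h.two (by positivity) hx (h.dt_pos hx).ne'.isUnit]
  simp only [ip, Pi.smul_apply, smul_eq_mul]
  rw [Finset.sum_div, Finset.mul_sum, Finset.mul_sum]
  refine Finset.sum_congr rfl fun i _ => ?_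
  rw [Finset.sum_div, Finset.mul_sum, Finset.mul_sum]
  refine Finset.sum_congr rfl fun j _ => ?_
  field_simp

lemma inv_hess_cell (h : SC Ω u) (haz : 0 < az) {x : En n} (hx : T x + 0 ∈ Ω)
    (ha : ∀ i, 0 < a i)
    (hT : ∀ x, ∀ i : Fin n, i.val < k → T x i = a i * x i) (i : Fin n) (hi : i.val < k) :
    az * ((hess u (T x + 0))⁻¹ i i / a i ^ 2) = (hess (tr u T 0 (1 / az) 0 0) x)⁻¹ i i := by
  have hg : (Pi.single i 1 : Fin n → ℝ) =
      (mT T).transpose.mulVec ((a i)⁻¹ • (Pi.single i 1 : Fin n → ℝ)) := by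
    ext j
    rw [Matrix.mulVec_smul, Matrix.mulVec_single_one]
    simp only [Pi.smul_apply, Matrix.col_apply, Matrix.transpose_apply, smul_eq_mul, mT_apply]
    rw [hT _ i hi]
    by_cases hij : j = i
    · subst hij
      have := (ha j).ne'
      simp [this]
    · have hij' : i ≠ j := fun h => hij h.symm
      simp [hij, hij']
  have h1 : ∀ (w : En n → ℝ) (y : En n), (hess w y)⁻¹ i i =
      ip w y (Pi.single i 1) (Pi.single i 1) := by
    intro w y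
    simp [ip, Pi.single_apply]
  rw [h1, h1]
  conv_rhs => rw [hg]
  rw [ip_tr h.op h.two (by positivity) hx (h.dt_pos hx).ne'.isUnit]
  simp only [ip, Pi.smul_apply, smul_eq_mul]
  rw [Finset.sum_div, Finset.mul_sum, Finset.mul_sum]
  refine Finset.sum_congr rfl fun i _ => ?_
  rw [Finset.sum_div, Finset.mul_sum, Finset.mul_sum]
  refine Finset.sum_congr rfl fun j _ => ?_
  field_simp

/-- The unit cell of the changed function. -/
def ucell (k : ℕ) (Ω : Set (En n)) (u : En n → ℝ) (T : En n ≃L[ℝ] En n) (az lo hi : ℝ) :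
    Set (En n) :=
  {x | x ∈ trD Ω T 0 ∧ lo ≤ tr u T 0 (1 / az) 0 0 x ∧ tr u T 0 (1 / az) 0 0 x ≤ hi ∧
    ∀ i : Fin n, i.val < k → lo ≤ x i ∧ x i ≤ hi}

lemma preimage_cell (ha : ∀ i, 0 < a i) (haz : 0 < az)
    (hT : ∀ x, ∀ i : Fin n, i.val < k → T x i = a i * x i) (lo hi : ℝ) :
    {x | T x + 0 ∈ cell k Ω u lo hi a az} = ucell k Ω u T az lo hi := by
  ext x; exact mem_cell_iff ha haz hT lo hi x

lemma isCompact_cell (ha : ∀ i, 0 < a i) (haz : 0 < az)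
    (hT : ∀ x, ∀ i : Fin n, i.val < k → T x i = a i * x i) {lo hi : ℝ}
    (hc : IsCompact (ucell k Ω u T az lo hi)) : IsCompact (cell k Ω u lo hi a az) := by
  have h1 : cell k Ω u lo hi a az = (fun x => T x + 0) '' ucell k Ω u T az lo hi := by
    rw [← preimage_cell ha haz hT]
    ext y
    constructor
    · intro hy
      exact ⟨T.symm y, by simpa using hy, by simp⟩
    · rintro ⟨x, hx, rfl⟩
      exact hx
  rw [h1]
  exact hc.image (by fun_prop)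

lemma pos_cell (h : SC Ω u) (ha : ∀ i, 0 < a i) (haz : 0 < az)
    (hT : ∀ x, ∀ i : Fin n, i.val < k → T x i = a i * x i)
    (hT' : ∀ i : Fin n, i.val < k →
      T (EuclideanSpace.single i 1) = EuclideanSpace.single i (a i)) {lo hi : ℝ}
    (hp : ∀ x ∈ ucell k Ω u T az lo hi, 0 < Bf k (tr u T 0 (1 / az) 0 0) x) :
    ∀ x ∈ cell k Ω u lo hi a az, 0 < Bf k u x := by
  intro y hy
  have hy' : T (T.symm y) + 0 = y := by simp
  rw [← hy'] at hy ⊢
  have hx := (mem_cell_iff ha haz hT lo hi (T.symm y)).1 hy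
  rw [Bf_cell h haz hx.1 hT hT']
  exact mul_pos haz (hp _ hx)

lemma integral_main_cell (h : SC Ω u) (ha : ∀ i, 0 < a i) (haz : 0 < az)
    (hT : ∀ x, ∀ i : Fin n, i.val < k → T x i = a i * x i)
    (hT' : ∀ i : Fin n, i.val < k →
      T (EuclideanSpace.single i 1) = EuclideanSpace.single i (a i)) {lo hi : ℝ}
    (hc : IsCompact (ucell k Ω u T az lo hi))
    (hp : ∀ x ∈ ucell k Ω u T az lo hi, 0 < Bf k (tr u T 0 (1 / az) 0 0) x) :
    ∫ x in cell k Ω u lo hi a az, Bf k u x ^ (-(n : ℝ) / 2) * Real.sqrt (dt u x) =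
      ∫ x in ucell k Ω u T az lo hi, Bf k (tr u T 0 (1 / az) 0 0) x ^ (-(n : ℝ) / 2) *
        Real.sqrt (dt (tr u T 0 (1 / az) 0 0) x) := by
  have hd : |(mT T).det| ≠ 0 := abs_ne_zero.2 (isUnit_det_mT T).ne_zero
  rw [integral_tr' T 0, preimage_cell ha haz hT, ← integral_const_mul]
  refine setIntegral_congr_fun hc.isClosed.measurableSet fun x hx => ?_
  have hB := hp x hx
  have hx1 : T x + 0 ∈ Ω := hx.1
  beta_reduce
  rw [Bf_cell h haz hx1 hT hT', dt_cell h haz hx1, Real.mul_rpow haz.le hB.le]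
  have h1 : az ^ (-(n : ℝ) / 2) * az ^ ((n : ℝ) / 2) = 1 := by
    rw [← Real.rpow_add haz]; ring_nf; simp
  calc |(mT T).det| * (az ^ (-(n : ℝ) / 2) * Bf k (tr u T 0 (1 / az) 0 0) x ^ (-(n : ℝ) / 2) *
        (az ^ ((n : ℝ) / 2) * |(mT T).det|⁻¹ * Real.sqrt (dt (tr u T 0 (1 / az) 0 0) x)))
      = (az ^ (-(n : ℝ) / 2) * az ^ ((n : ℝ) / 2)) * (|(mT T).det| * |(mT T).det|⁻¹) *
        (Bf k (tr u T 0 (1 / az) 0 0) x ^ (-(n : ℝ) / 2) *
          Real.sqrt (dt (tr u T 0 (1 / az) 0 0) x)) := by ring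
    _ = _ := by rw [h1, mul_inv_cancel₀ hd]; ring

lemma integral_err_cell (h : SC Ω u) (ha : ∀ i, 0 < a i) (haz : 0 < az)
    (hT : ∀ x, ∀ i : Fin n, i.val < k → T x i = a i * x i)
    (hT' : ∀ i : Fin n, i.val < k →
      T (EuclideanSpace.single i 1) = EuclideanSpace.single i (a i)) {lo hi : ℝ}
    (hc : IsCompact (ucell k Ω u T az lo hi))
    (hp : ∀ x ∈ ucell k Ω u T az lo hi, 0 < Bf k (tr u T 0 (1 / az) 0 0) x) :
    ∫ x in cell k Ω u lo hi a az, Bf k u x ^ (-((n : ℝ) - 2) / 2) * Real.sqrt (dt u x) *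
      (ip u x (gr u x) (gr u x) / az ^ 2 +
        ∑ i : Fin n, if i.val < k then (hess u x)⁻¹ i i / a i ^ 2 else 0) =
      ∫ x in ucell k Ω u T az lo hi, Bf k (tr u T 0 (1 / az) 0 0) x ^ (-((n : ℝ) - 2) / 2) *
        Real.sqrt (dt (tr u T 0 (1 / az) 0 0) x) *
        (ip (tr u T 0 (1 / az) 0 0) x (gr (tr u T 0 (1 / az) 0 0) x)
          (gr (tr u T 0 (1 / az) 0 0) x) +
        ∑ i : Fin n, if i.val < k then (hess (tr u T 0 (1 / az) 0 0) x)⁻¹ i i else 0) := by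
  have hd : |(mT T).det| ≠ 0 := abs_ne_zero.2 (isUnit_det_mT T).ne_zero
  rw [integral_tr' T 0, preimage_cell ha haz hT, ← integral_const_mul]
  refine setIntegral_congr_fun hc.isClosed.measurableSet fun x hx => ?_
  have hB := hp x hx
  have hx1 : T x + 0 ∈ Ω := hx.1
  beta_reduce
  rw [Bf_cell h haz hx1 hT hT', dt_cell h haz hx1, Real.mul_rpow haz.le hB.le]
  have h1 : az ^ (-((n : ℝ) - 2) / 2) * az ^ ((n : ℝ) / 2) = az := by
    rw [← Real.rpow_add haz]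
    have : -((n : ℝ) - 2) / 2 + (n : ℝ) / 2 = 1 := by ring
    rw [this, Real.rpow_one]
  have h2 : az * (ip u (T x + 0) (gr u (T x + 0)) (gr u (T x + 0)) / az ^ 2 +
      ∑ i : Fin n, if i.val < k then (hess u (T x + 0))⁻¹ i i / a i ^ 2 else 0) =
      ip (tr u T 0 (1 / az) 0 0) x (gr (tr u T 0 (1 / az) 0 0) x)
          (gr (tr u T 0 (1 / az) 0 0) x) +
        ∑ i : Fin n, if i.val < k then (hess (tr u T 0 (1 / az) 0 0) x)⁻¹ i i else 0 := by
    rw [mul_add, ip_gr_cell h haz hx1, Finset.mul_sum]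
    congr 1
    refine Finset.sum_congr rfl fun i _ => ?_
    split_ifs with hi
    · exact inv_hess_cell h haz hx1 ha hT i hi
    · simp
  rw [← h2]
  calc |(mT T).det| * (az ^ (-((n : ℝ) - 2) / 2) *
        Bf k (tr u T 0 (1 / az) 0 0) x ^ (-((n : ℝ) - 2) / 2) *
        (az ^ ((n : ℝ) / 2) * |(mT T).det|⁻¹ * Real.sqrt (dt (tr u T 0 (1 / az) 0 0) x)) *
        (ip u (T x + 0) (gr u (T x + 0)) (gr u (T x + 0)) / az ^ 2 +
      ∑ i : Fin n, if i.val < k then (hess u (T x + 0))⁻¹ i i / a i ^ 2 else 0))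
      = (az ^ (-((n : ℝ) - 2) / 2) * az ^ ((n : ℝ) / 2)) * (|(mT T).det| * |(mT T).det|⁻¹) *
        (Bf k (tr u T 0 (1 / az) 0 0) x ^ (-((n : ℝ) - 2) / 2) *
          Real.sqrt (dt (tr u T 0 (1 / az) 0 0) x) *
        (ip u (T x + 0) (gr u (T x + 0)) (gr u (T x + 0)) / az ^ 2 +
      ∑ i : Fin n, if i.val < k then (hess u (T x + 0))⁻¹ i i / a i ^ 2 else 0)) := by ring
    _ = _ := by rw [h1, mul_inv_cancel₀ hd]; ring

end formulas

/-- **Approximants satisfy the cell estimates at any finite set of scales.** -/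
theorem cells (hk : 1 ≤ k) (hkn : k ≤ n) (hE : Stmt_cellErr n k) (hM : Stmt_cellMain n k)
    (hR : Stmt_rescale n k) : Stmt_cells n k := by
  intro K hK hP1 hP2
  obtain ⟨R₁, ε₁, C, hR₁, hε₁, hC, hErr⟩ := hE hk hkn hP1 hP2
  obtain ⟨R₂, ε₂, c, τ, T, hR₂, hε₂, hc, hτ, hτ1, hT1, hMain⟩ := hM hk hkn hP1 hP2
  refine ⟨C, c, τ, T, hC, hc, hτ, hτ1, hT1, fun A hA => ?_⟩
  -- the transformations
  have hex : ∀ s : (Fin n → ℝ) × ℝ, s ∈ A → ∃ S : En n ≃L[ℝ] En n,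
      (∀ x, ∀ i : Fin n, i.val < k → S x i = s.1 i * x i) ∧
      (∀ i : Fin n, i.val < k → S (EuclideanSpace.single i 1) =
        EuclideanSpace.single i (s.1 i)) ∧
      Wedge n k {p | (S p.1, s.2 * p.2) ∈ K} := fun s hs =>
    hR K hK s.1 s.2 (hA s hs).1 (hA s hs).2
  choose! S hS1 hS2 hS3 using hex
  -- the parameter
  have hev : ∀ᶠ t : ℝ in atTop, ∀ s ∈ A, ∀ K' : Set (En n × ℝ), Close t (1 / t) K K' →
      Close (max R₁ R₂) (min ε₁ ε₂) {p : En n × ℝ | (S s p.1, s.2 * p.2) ∈ K}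
        {p : En n × ℝ | (S s p.1, s.2 * p.2) ∈ K'} := by
    rw [Filter.eventually_all_finset]
    intro s hs
    have haz : s.2 ≠ 0 := ((hA s hs).2).ne'
    filter_upwards [Close.preimage838 (diagMap (S s) s.2 haz) (R' := max R₁ R₂)
      (lt_min hε₁ hε₂)] with t ht K' hK'
    have h1 := ht K K' hK'
    have h2 : ∀ M : Set (En n × ℝ), (diagMap (S s) s.2 haz) ⁻¹' M =
        {p | (S s p.1, s.2 * p.2) ∈ M} := by
      intro M
      ext p
      rw [Set.mem_preimage, diagMap_apply]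
      rfl
    rwa [h2, h2] at h1
  obtain ⟨t, ht, ht0⟩ := (hev.and (eventually_gt_atTop 0)).exists
  obtain ⟨Ω, u, hu, hclose⟩ := hK.adm t (1 / t) (by positivity)
  refine ⟨Ω, u, hu, fun s hs => ?_⟩
  obtain ⟨ha, haz⟩ := hA s hs
  have hcl := ht s hs _ hclose
  have hepi : {p : En n × ℝ | (S s p.1, s.2 * p.2) ∈ epi Ω u} =
      epi (trD Ω (S s) 0) (tr u (S s) 0 (1 / s.2) 0 0) := by
    rw [epiPull n Ω u (S s) 0 (1 / s.2) 0 0 (by positivity)]
    ext p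
    simp [pull, mul_comm]
  rw [hepi] at hcl
  have hAMC := trans n Ω u (S s) 0 (1 / s.2) 0 0 (by positivity) hu
  have hsc : SC Ω u := hu.toSC
  obtain ⟨hE1, hE2, hE3⟩ := hErr _ (hS3 s hs) _ _ hAMC
    (hcl.mono838 (le_max_left _ _) (min_le_left _ _))
  obtain ⟨hM1, hM2, hM3⟩ := hMain _ (hS3 s hs) _ _ hAMC
    (hcl.mono838 (le_max_right _ _) (min_le_right _ _))
  exact {
    cptE := isCompact_cell ha haz (hS1 s hs) hE1
    posE := pos_cell hsc ha haz (hS1 s hs) (hS2 s hs) hE2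
    err := by
      rw [integral_err_cell hsc ha haz (hS1 s hs) (hS2 s hs) hE1 hE2]
      exact hE3
    cptM := isCompact_cell ha haz (hS1 s hs) hM1
    posM := pos_cell hsc ha haz (hS1 s hs) (hS2 s hs) hM2
    main := by
      rw [integral_main_cell hsc ha haz (hS1 s hs) (hS2 s hs) hM1 hM2]
      exact hM3 }

end Vale.Agent.P252.R
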